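import Mathlib

open Filter Topology

namespace Vale.Agent.P134h3

variable {n : ℕ}

abbrev EE (n : ℕ) := EuclideanSpace ℝ (Fin n)

/-- Standard basis vectors. -/
noncomputable abbrev bv (i : Fin n) : EE n := EuclideanSpace.single i (1 : ℝ)

theorem line_hasDeriv {F : Type*} [NormedAddCommGroup F] [NormedSpace ℝ F] {Q : EE n → F}
    (hQ : Differentiable ℝ Q) (x e : EE n) (t : ℝ) :
    HasDerivAt (fun s : ℝ => Q (x + s • e)) (fderiv ℝ Q (x + t • e) e) t := by
  have h1 : HasDerivAt (fun s : ℝ => x + s • e) e t := by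
    simpa using ((hasDerivAt_id t).smul_const e).const_add x
  exact (hQ (x + t • e)).hasFDerivAt.comp_hasDerivAt t h1

/-- The Bochner argument: if `∑ (∂ⱼ ψ)²` and `∑ ∂ᵢ∂ᵢ ψ` are constant then all second derivatives
of `ψ` vanish. -/
theorem bochner {ψ : EE n → ℝ} (hψ : ContDiff ℝ 3 ψ) {A₀ B₀ : ℝ}
    (hA : ∀ x, ∑ j, (fderiv ℝ ψ x (bv j)) ^ 2 = A₀)
    (hB : ∀ x, ∑ i, fderiv ℝ (fderiv ℝ ψ) x (bv i) (bv i) = B₀) (x : EE n) (i j : Fin n) :
    fderiv ℝ (fderiv ℝ ψ) x (bv i) (bv j) = 0 := by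
  have hP2 : ContDiff ℝ 2 (fderiv ℝ ψ) := hψ.fderiv_right (by norm_num)
  have hH1 : ContDiff ℝ 1 (fderiv ℝ (fderiv ℝ ψ)) := hP2.fderiv_right (by norm_num)
  have hPd : Differentiable ℝ (fderiv ℝ ψ) := hP2.differentiable (by norm_num)
  have hHd : Differentiable ℝ (fderiv ℝ (fderiv ℝ ψ)) := hH1.differentiable (by norm_num)
  obtain ⟨P, hP⟩ : ∃ P, P = fderiv ℝ ψ := ⟨_, rfl⟩
  obtain ⟨H, hH⟩ : ∃ H, H = fderiv ℝ P := ⟨_, rfl⟩
  obtain ⟨T, hT⟩ : ∃ T, T = fderiv ℝ H := ⟨_, rfl⟩
  rw [← hP] at hP2 hH1 hPd hHd hA hB ⊢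
  rw [← hH] at hH1 hHd hB ⊢
  -- symmetry of the third derivative
  have hsym2 : ∀ y (a c : EE n), H y a c = H y c a := by
    intro y a c
    have h2 : ContDiffAt ℝ 2 ψ y := (hψ.of_le (by norm_num)).contDiffAt
    have h6 : IsSymmSndFDerivAt ℝ ψ y := h2.isSymmSndFDerivAt (by simp)
    rw [hH, hP]
    exact h6 a c
  have hsymT1 : ∀ y (a c d : EE n), T y a c d = T y c a d := by
    intro y a c d
    have h2 : ContDiffAt ℝ 2 P y := hP2.contDiffAt
    have h6 : IsSymmSndFDerivAt ℝ P y := h2.isSymmSndFDerivAt (by simp)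
    have h7 := h6 a c
    rw [hT, hH, h7]
  have hTline : ∀ (y a c d : EE n) (t : ℝ), HasDerivAt (fun s : ℝ => H (y + s • a) c d)
      (T (y + t • a) a c d) t := by
    intro y a c d t
    have h1 := line_hasDeriv (F := EE n →L[ℝ] EE n →L[ℝ] ℝ) hHd y a t
    rw [← hT] at h1
    have h2 := h1.clm_apply (hasDerivAt_const t c)
    have h3 := h2.clm_apply (hasDerivAt_const t d)
    simpa using h3
  have hsymT2 : ∀ y (a c d : EE n), T y a c d = T y a d c := by
    intro y a c d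
    have h1 := hTline y a c d 0
    have h2 := hTline y a d c 0
    have h3 : (fun s : ℝ => H (y + s • a) c d) = fun s : ℝ => H (y + s • a) d c := by
      funext s; exact hsym2 _ _ _
    rw [h3] at h1
    have h4 := h1.unique h2
    simpa using h4
  -- first derivative along lines
  have hPline : ∀ (y a c : EE n) (t : ℝ), HasDerivAt (fun s : ℝ => P (y + s • a) c)
      (H (y + t • a) a c) t := by
    intro y a c t
    have h1 := line_hasDeriv hPd y a t
    rw [← hH] at h1
    have h2 := h1.clm_apply (hasDerivAt_const t c)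
    simpa using h2
  -- the derivative of the constant `∑ (P e_j)²` along the line in direction `e_i`
  have hfirst : ∀ (k : Fin n) (t : ℝ),
      ∑ j, 2 * (P (x + t • bv k) (bv j) * H (x + t • bv k) (bv k) (bv j)) = 0 := by
    intro k t
    have h1 : HasDerivAt (fun s : ℝ => ∑ j, (P (x + s • bv k) (bv j)) ^ 2)
        (∑ j, 2 * (P (x + t • bv k) (bv j) * H (x + t • bv k) (bv k) (bv j))) t := by
      refine HasDerivAt.fun_sum fun j _ => ?_
      have h2 := (hPline x (bv k) (bv j) t).pow 2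
      refine HasDerivAt.congr_deriv h2 ?_
      simp
      ring
    have h3 : (fun s : ℝ => ∑ j, (P (x + s • bv k) (bv j)) ^ 2) = fun _ => A₀ := by
      funext s; exact hA _
    rw [h3] at h1
    exact h1.unique (hasDerivAt_const t A₀)
  -- the second derivative at `t = 0`
  have hsecond : ∀ k : Fin n, ∑ j, 2 * ((H x (bv k) (bv j)) ^ 2 +
      P x (bv j) * T x (bv k) (bv k) (bv j)) = 0 := by
    intro k
    have h1 : HasDerivAt (fun s : ℝ => ∑ j, 2 * (P (x + s • bv k) (bv j) * H (x + s • bv k) (bv k) (bv j)))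
        (∑ j, 2 * ((H x (bv k) (bv j)) ^ 2 + P x (bv j) * T x (bv k) (bv k) (bv j))) 0 := by
      refine HasDerivAt.fun_sum fun j _ => ?_
      have h2 := ((hPline x (bv k) (bv j) 0).mul (hTline x (bv k) (bv k) (bv j) 0)).const_mul 2
      refine HasDerivAt.congr_deriv h2 ?_
      simp only [zero_smul, add_zero]
      ring
    have h3 : (fun s : ℝ => ∑ j, 2 * (P (x + s • bv k) (bv j) * H (x + s • bv k) (bv k) (bv j))) =
        fun _ => 0 := by
      funext s; exact hfirst k s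
    rw [h3] at h1
    exact h1.unique (hasDerivAt_const 0 0)
  -- the derivative of the constant Laplacian
  have hlap : ∀ j : Fin n, ∑ k, T x (bv j) (bv k) (bv k) = 0 := by
    intro j
    have h1 : HasDerivAt (fun s : ℝ => ∑ k, H (x + s • bv j) (bv k) (bv k))
        (∑ k, T (x + (0 : ℝ) • bv j) (bv j) (bv k) (bv k)) 0 :=
      HasDerivAt.fun_sum fun k _ => hTline x (bv j) (bv k) (bv k) 0
    have h3 : (fun s : ℝ => ∑ k, H (x + s • bv j) (bv k) (bv k)) = fun _ => B₀ := by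
      funext s; exact hB _
    rw [h3] at h1
    have h4 := h1.unique (hasDerivAt_const 0 B₀)
    simpa using h4
  -- summing over `k`
  have hsum : ∑ k, ∑ j, (H x (bv k) (bv j)) ^ 2 = 0 := by
    have h1 : ∑ k, ∑ j, 2 * ((H x (bv k) (bv j)) ^ 2 + P x (bv j) * T x (bv k) (bv k) (bv j)) = 0 :=
      Finset.sum_eq_zero fun k _ => hsecond k
    have h2 : ∑ k, ∑ j, P x (bv j) * T x (bv k) (bv k) (bv j) = 0 := by
      rw [Finset.sum_comm]
      refine Finset.sum_eq_zero fun j _ => ?_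
      rw [← Finset.mul_sum]
      have h3 : ∑ k, T x (bv k) (bv k) (bv j) = ∑ k, T x (bv j) (bv k) (bv k) := by
        refine Finset.sum_congr rfl fun k _ => ?_
        rw [hsymT2 x (bv k) (bv k) (bv j), hsymT1 x (bv k) (bv j) (bv k)]
      rw [h3, hlap j, mul_zero]
    have h4 : ∑ k, ∑ j, 2 * ((H x (bv k) (bv j)) ^ 2 + P x (bv j) * T x (bv k) (bv k) (bv j)) =
        2 * (∑ k, ∑ j, (H x (bv k) (bv j)) ^ 2) + 2 * ∑ k, ∑ j, P x (bv j) * T x (bv k) (bv k) (bv j) := by
      simp only [Finset.mul_sum, mul_add, Finset.sum_add_distrib]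
    rw [h4, h2] at h1
    linarith
  have h1 := (Finset.sum_eq_zero_iff_of_nonneg
    (fun k _ => Finset.sum_nonneg fun j _ => sq_nonneg _)).mp hsum i (Finset.mem_univ i)
  have h2 := (Finset.sum_eq_zero_iff_of_nonneg (fun j _ => sq_nonneg _)).mp h1 j (Finset.mem_univ j)
  exact pow_eq_zero_iff (two_ne_zero) |>.mp h2

end Vale.Agent.P134h3
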