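import Vale.Agent.P134h3.Bochner
import Vale.Agent.P100h3.Core

open Filter Topology Laplacian InnerProductSpace

namespace Vale.Agent.P134h3

variable {n : ℕ}

theorem no_exp {g : ℝ → ℝ} (hg : ContDiff ℝ 2 g) (hmono : ∀ t, 0 < deriv g t)
    (hbd : ∀ s, |g s| ≤ 1) {c : ℝ} (h : ∀ s, deriv (deriv g) s = c * deriv g s) : False := by
  have hd1 : Differentiable ℝ g := hg.differentiable (by norm_num)
  have h2 : ContDiff ℝ 1 (deriv g) := by
    have : ContDiff ℝ (1 + 1) g := by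
      have h3 : (1 + 1 : WithTop ℕ∞) = 2 := by norm_num
      rw [h3]; exact hg
    exact (contDiff_succ_iff_deriv.mp this).2.2
  have hd2 : Differentiable ℝ (deriv g) := h2.differentiable (by norm_num)
  have h0 := hmono 0
  have hb0 := abs_le.mp (hbd 0)
  rcases le_or_gt 0 c with hc | hc
  · have hm : Monotone (deriv g) := monotone_of_deriv_nonneg hd2 fun s => by
      rw [h s]; exact mul_nonneg hc (hmono s).le
    have hσ : 0 < 3 / deriv g 0 := by positivity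
    obtain ⟨ξ, hξ, hs⟩ := exists_deriv_eq_slope g hσ hd1.continuous.continuousOn hd1.differentiableOn
    have h3 : deriv g 0 ≤ deriv g ξ := hm hξ.1.le
    rw [sub_zero, eq_div_iff hσ.ne'] at hs
    have h4 : deriv g 0 * (3 / deriv g 0) ≤ deriv g ξ * (3 / deriv g 0) :=
      mul_le_mul_of_nonneg_right h3 hσ.le
    have h5 : deriv g 0 * (3 / deriv g 0) = 3 := by field_simp
    have hb1 := abs_le.mp (hbd (3 / deriv g 0))
    linarith [hb1.2, hb0.1]
  · have hm : Antitone (deriv g) := antitone_of_deriv_nonpos hd2 fun s => by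
      rw [h s]; exact mul_nonpos_of_nonpos_of_nonneg hc.le (hmono s).le
    have hσ : - (3 / deriv g 0) < 0 := by
      have : 0 < 3 / deriv g 0 := by positivity
      linarith
    obtain ⟨ξ, hξ, hs⟩ := exists_deriv_eq_slope g hσ hd1.continuous.continuousOn hd1.differentiableOn
    have h3 : deriv g 0 ≤ deriv g ξ := hm hξ.2.le
    have h6 : (0 : ℝ) - - (3 / deriv g 0) = 3 / deriv g 0 := by ring
    have hσ' : 0 < 3 / deriv g 0 := by positivity
    rw [h6, eq_div_iff hσ'.ne'] at hs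
    have h4 : deriv g 0 * (3 / deriv g 0) ≤ deriv g ξ * (3 / deriv g 0) :=
      mul_le_mul_of_nonneg_right h3 hσ'.le
    have h5 : deriv g 0 * (3 / deriv g 0) = 3 := by field_simp
    have hb1 := abs_le.mp (hbd (- (3 / deriv g 0)))
    linarith [hb1.1, hb0.2]

/-- Chain rule for the Laplacian. -/
theorem lap_comp {g : ℝ → ℝ} {ψ : EE n → ℝ} (hg : ContDiff ℝ 2 g) (hψ : ContDiff ℝ 3 ψ) (x : EE n) :
    Δ (fun y => g (ψ y)) x = deriv (deriv g) (ψ x) * ∑ j, (fderiv ℝ ψ x (bv j)) ^ 2 +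
      deriv g (ψ x) * ∑ i, fderiv ℝ (fderiv ℝ ψ) x (bv i) (bv i) := by
  have hψ2 : ContDiff ℝ 2 ψ := hψ.of_le (by norm_num)
  have hu : ContDiffAt ℝ 2 (fun y => g (ψ y)) x := (hg.comp hψ2).contDiffAt
  rw [Vale.Agent.P100h3.lap_eq_sum (EuclideanSpace.basisFun (Fin n) ℝ) hu,
    Finset.mul_sum, Finset.mul_sum, ← Finset.sum_add_distrib]
  refine Finset.sum_congr rfl fun i _ => ?_
  simp only [EuclideanSpace.basisFun_apply]
  have hd1 : Differentiable ℝ g := hg.differentiable (by norm_num)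
  have h2 : ContDiff ℝ 1 (deriv g) := by
    have : ContDiff ℝ (1 + 1) g := by
      have h3 : (1 + 1 : WithTop ℕ∞) = 2 := by norm_num
      rw [h3]; exact hg
    exact (contDiff_succ_iff_deriv.mp this).2.2
  have hd2 : Differentiable ℝ (deriv g) := h2.differentiable (by norm_num)
  have hψd : Differentiable ℝ ψ := hψ.differentiable (by norm_num)
  have hP : ContDiff ℝ 2 (fderiv ℝ ψ) := hψ.fderiv_right (by norm_num)
  have hPd : Differentiable ℝ (fderiv ℝ ψ) := hP.differentiable (by norm_num)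
  have hγ : ∀ t : ℝ, HasDerivAt (fun s : ℝ => ψ (x + s • bv i)) (fderiv ℝ ψ (x + t • bv i) (bv i)) t :=
    fun t => line_hasDeriv hψd x (bv i) t
  have hγ' : ∀ t : ℝ, HasDerivAt (fun s : ℝ => fderiv ℝ ψ (x + s • bv i) (bv i))
      (fderiv ℝ (fderiv ℝ ψ) (x + t • bv i) (bv i) (bv i)) t := by
    intro t
    have h1 := line_hasDeriv (F := EE n →L[ℝ] ℝ) hPd x (bv i) t
    have h3 := h1.clm_apply (hasDerivAt_const t (bv i))
    simpa using h3
  have h1 : deriv (fun t : ℝ => g (ψ (x + t • bv i))) =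
      fun t => deriv g (ψ (x + t • bv i)) * fderiv ℝ ψ (x + t • bv i) (bv i) := by
    funext t
    exact ((hd1 _).hasDerivAt.comp t (hγ t)).deriv
  rw [h1]
  have h3 : HasDerivAt (fun s : ℝ => deriv g (ψ (x + s • bv i)))
      (deriv (deriv g) (ψ (x + (0 : ℝ) • bv i)) * fderiv ℝ ψ (x + (0 : ℝ) • bv i) (bv i)) 0 :=
    (hd2 _).hasDerivAt.comp 0 (hγ 0)
  have h4 := (h3.mul (hγ' 0)).deriv
  simp only [zero_smul, add_zero] at h4
  rw [show (fun t : ℝ => deriv g (ψ (x + t • bv i)) * fderiv ℝ ψ (x + t • bv i) (bv i)) =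
    ((fun s : ℝ => deriv g (ψ (x + s • bv i))) * fun s : ℝ => fderiv ℝ ψ (x + s • bv i) (bv i)) from rfl, h4]
  ring

theorem clm_eq_zero {F : Type*} [NormedAddCommGroup F] [NormedSpace ℝ F] (L : EE n →L[ℝ] F)
    (h : ∀ i, L (bv i) = 0) : L = 0 := by
  ext v
  have hv : v = ∑ i, v i • bv i := by
    have := (EuclideanSpace.basisFun (Fin n) ℝ).sum_repr v
    simpa using this.symm
  rw [hv, map_sum]
  simp [h]

/-- Solutions of the Allen-Cahn equation all of whose level sets are translates of one graph in the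
monotonicity direction are one-dimensional. -/
theorem translated_levelsets (ℓ : Fin n) {g : ℝ → ℝ} {φ : EE n → ℝ} (hg : ContDiff ℝ 2 g)
    (hφ : ContDiff ℝ 3 φ) (hindep : ∀ (x : EE n) (t : ℝ), φ (x + t • bv ℓ) = φ x)
    (hmono : ∀ t, 0 < deriv g t) (hbd : ∀ x : EE n, |g (x ℓ + φ x)| ≤ 1)
    (heq : ∀ x, Δ (fun y : EE n => g (y ℓ + φ y)) x = g (x ℓ + φ x) ^ 3 - g (x ℓ + φ x)) :
    ∃ (p : EE n →L[ℝ] ℝ) (q : ℝ), ∀ x, φ x = p x + q := by
  obtain ⟨ψ, hψdef⟩ : ∃ ψ : EE n → ℝ, ψ = fun y => y ℓ + φ y := ⟨_, rfl⟩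
  have hproj : ContDiff ℝ 3 (fun y : EE n => y ℓ) :=
    (EuclideanSpace.proj ℓ : EE n →L[ℝ] ℝ).contDiff
  have hψ : ContDiff ℝ 3 ψ := by rw [hψdef]; exact hproj.add hφ
  have hψs : ∀ (x : EE n) (s : ℝ), ψ (x + s • bv ℓ) = ψ x + s := by
    intro x s
    rw [hψdef]
    simp only [hindep]
    simp
    ring
  have hψd : Differentiable ℝ ψ := hψ.differentiable (by norm_num)
  have hP2 : ContDiff ℝ 2 (fderiv ℝ ψ) := hψ.fderiv_right (by norm_num)
  have hPd : Differentiable ℝ (fderiv ℝ ψ) := hP2.differentiable (by norm_num)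
  have hPinv : ∀ (x : EE n) (s : ℝ), fderiv ℝ ψ (x + s • bv ℓ) = fderiv ℝ ψ x := by
    intro x s
    have h1 : (fun y => ψ (y + s • bv ℓ)) = fun y => ψ y + s := funext fun y => hψs y s
    have h2 := fderiv_comp_add_right (𝕜 := ℝ) (f := ψ) (x := x) (s • bv ℓ)
    rw [h1, fderiv_add_const] at h2
    exact h2.symm
  have hHinv : ∀ (x : EE n) (s : ℝ), fderiv ℝ (fderiv ℝ ψ) (x + s • bv ℓ) = fderiv ℝ (fderiv ℝ ψ) x := by
    intro x s
    have h1 : (fun y => fderiv ℝ ψ (y + s • bv ℓ)) = fderiv ℝ ψ := funext fun y => hPinv y s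
    have h2 := fderiv_comp_add_right (𝕜 := ℝ) (f := fderiv ℝ ψ) (x := x) (s • bv ℓ)
    rw [h1] at h2
    exact h2.symm
  obtain ⟨A, hA⟩ : ∃ A : EE n → ℝ, A = fun x => ∑ j, (fderiv ℝ ψ x (bv j)) ^ 2 := ⟨_, rfl⟩
  obtain ⟨B, hB⟩ : ∃ B : EE n → ℝ, B = fun x => ∑ i, fderiv ℝ (fderiv ℝ ψ) x (bv i) (bv i) := ⟨_, rfl⟩
  have hu : (fun y : EE n => g (y ℓ + φ y)) = fun y => g (ψ y) := by rw [hψdef]
  have hψapp : ∀ y : EE n, y ℓ + φ y = ψ y := fun y => by rw [hψdef]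
  have hE : ∀ (x : EE n) (σ : ℝ), deriv (deriv g) σ * A x + deriv g σ * B x = g σ ^ 3 - g σ := by
    intro x σ
    have h1 := heq (x + (σ - ψ x) • bv ℓ)
    rw [hu, lap_comp hg hψ, hPinv, hHinv, hψs] at h1
    have h2 : ψ x + (σ - ψ x) = σ := by ring
    rw [h2] at h1
    have h3 : (x + (σ - ψ x) • bv ℓ) ℓ + φ (x + (σ - ψ x) • bv ℓ) = σ := by
      rw [hψapp, hψs, h2]
    rw [h3] at h1
    rw [hA, hB]
    exact h1
  have hbdg : ∀ σ, |g σ| ≤ 1 := by
    intro σ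
    have h1 := hbd ((0 : EE n) + (σ - ψ 0) • bv ℓ)
    have h2 : ψ 0 + (σ - ψ 0) = σ := by ring
    have h3 : ((0 : EE n) + (σ - ψ 0) • bv ℓ) ℓ + φ ((0 : EE n) + (σ - ψ 0) • bv ℓ) = σ := by
      rw [hψapp, hψs, h2]
    rwa [h3] at h1
  have hAconst : ∀ x, A x = A 0 := by
    intro x
    by_contra hne
    have hd : A x - A 0 ≠ 0 := sub_ne_zero.mpr hne
    refine no_exp hg hmono hbdg (c := - ((B x - B 0) / (A x - A 0))) fun s => ?_
    have h1 := hE x s
    have h2 := hE 0 s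
    field_simp
    linear_combination h1 - h2
  have hBconst : ∀ x, B x = B 0 := by
    intro x
    have h1 := hE x 0
    have h2 := hE 0 0
    rw [hAconst x] at h1
    have h3 : deriv g 0 * (B x - B 0) = 0 := by linear_combination h1 - h2
    have h4 := (mul_eq_zero.mp h3).resolve_left (hmono 0).ne'
    linarith
  have hsnd := bochner hψ (A₀ := A 0) (B₀ := B 0)
    (fun x => by have := hAconst x; rw [hA] at this ⊢; exact this)
    (fun x => by have := hBconst x; rw [hB] at this ⊢; exact this)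
  have hH0 : ∀ x, fderiv ℝ (fderiv ℝ ψ) x = 0 := by
    intro x
    refine clm_eq_zero _ fun i => clm_eq_zero _ fun j => ?_
    exact hsnd x i j
  have hPconst : ∀ x, fderiv ℝ ψ x = fderiv ℝ ψ 0 := fun x =>
    is_const_of_fderiv_eq_zero hPd hH0 x 0
  have haff : ∀ x, ψ x - fderiv ℝ ψ 0 x = ψ 0 - fderiv ℝ ψ 0 0 := by
    intro x
    have hd : Differentiable ℝ (fun y => ψ y - fderiv ℝ ψ 0 y) :=
      hψd.sub (fderiv ℝ ψ 0).differentiable
    have h0 : ∀ y, fderiv ℝ (fun y => ψ y - fderiv ℝ ψ 0 y) y = 0 := by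
      intro y
      have h1 := ((hψd y).hasFDerivAt.sub (fderiv ℝ ψ 0).hasFDerivAt).fderiv
      rw [show (fun y => ψ y - fderiv ℝ ψ 0 y) = ψ - fun y => fderiv ℝ ψ 0 y from rfl, h1, hPconst y]
      simp
    exact is_const_of_fderiv_eq_zero hd h0 x 0
  refine ⟨fderiv ℝ ψ 0 - (EuclideanSpace.proj ℓ : EE n →L[ℝ] ℝ), ψ 0, fun x => ?_⟩
  have h1 := haff x
  have h2 : ψ x = x ℓ + φ x := by rw [hψdef]
  simp only [map_zero, sub_zero] at h1
  have h3 : (EuclideanSpace.proj ℓ : EE n →L[ℝ] ℝ) x = x ℓ := rfl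
  show φ x = (fderiv ℝ ψ 0) x - (EuclideanSpace.proj ℓ : EE n →L[ℝ] ℝ) x + ψ 0
  rw [h3]
  linarith

end Vale.Agent.P134h3
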